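import Vale.Agent.P223.R2.H84.SpecAm

/-! P223, modifications, row R2a: the same functions form a partition of unity for two coverings
of the same manifold with the same charts (helper887). -/

namespace Vale.Agent.P223.R2.H887

open scoped ContDiff
open Vale.Agent.P223.H Vale.Agent.P223.X Vale.Agent.P223.R2.H84

section
variable {n : ℕ} {M X Γ I : Type} [TopologicalSpace M] [TopologicalSpace X] [Group Γ]
    [MulAction Γ X]

theorem ex_psi' (C : Cov n M X Γ I) (i : I) (h : E n → ℝ) (y : E n) :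
    C.ex i h (C.ψ i y) = h y := by
  unfold Cov.ex Cov.co
  rw [if_pos (Set.mem_range_self y), Function.leftInverse_invFun (C.emb i).injective y]

/-- over a point of the chart, the sum of the extension by zero is the value -/
theorem sum_ex (C : Cov n M X Γ I) (i : I) (h : E n → ℝ) (x : X) (y : E n)
    (hxy : C.π (C.ψ i y) = C.π x) : ∑ᶠ γ : Γ, C.ex i h (γ • x) = h y := by
  obtain ⟨γ₀, hγ⟩ := (C.orb _ _).1 hxy
  rw [finsum_eq_single (fun γ : Γ => C.ex i h (γ • x)) γ₀⁻¹]
  · rw [← hγ, inv_smul_smul, ex_psi']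
  · intro γ hne
    have h1 : ¬ γ • x ∈ Set.range (C.ψ i) := by
      rintro ⟨y', hy'⟩
      have h2 : (γ * γ₀) • C.ψ i y = C.ψ i y' := by rw [mul_smul, hγ, hy']
      exact hne (eq_inv_of_mul_eq_one_left (C.inj i _ _ _ h2))
    exact if_neg h1

/-- over a point outside the chart, the sum of the extension by zero is zero -/
theorem sum_ex0 (C : Cov n M X Γ I) (i : I) (h : E n → ℝ) (x : X)
    (hx : ∀ y : E n, C.π (C.ψ i y) ≠ C.π x) : ∑ᶠ γ : Γ, C.ex i h (γ • x) = 0 := by
  have h0 : ∀ γ : Γ, C.ex i h (γ • x) = 0 := by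
    intro γ
    have h1 : ¬ γ • x ∈ Set.range (C.ψ i) := by
      rintro ⟨y', hy'⟩
      exact hx y' ((C.orb _ _).2 ⟨γ⁻¹, by rw [hy', inv_smul_smul]⟩)
    exact if_neg h1
  simp only [h0, finsum_zero]

end

/-- ROW R2a -/
theorem specPartC : SpecPartC := by
  intro n M X W G Γ I _ _ _ _ _ _ _ _ _ _ C C' hψ χ hχ
  refine ⟨hχ.smooth, hχ.nonneg, hχ.supp, fun w => ?_⟩
  obtain ⟨x, hx⟩ := C.surj (C'.π w)
  rw [← hχ.sum x]
  refine Finset.sum_congr rfl fun i _ => ?_
  by_cases hy : ∃ y : E n, C.π (C.ψ i y) = C.π x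
  · obtain ⟨y, hy⟩ := hy
    rw [sum_ex C i (χ i) x y hy, sum_ex C' i (χ i) w y (by rw [hψ, hy, hx])]
  · push Not at hy
    rw [sum_ex0 C i (χ i) x hy, sum_ex0 C' i (χ i) w fun y h => hy y (by rw [← hψ, h, hx])]

end Vale.Agent.P223.R2.H887
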