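import Vale.Agent.P223.R2.H84.Spec
import Vale.Agent.P223.X.WtX
import Vale.Agent.P223.H.Norm

/-! P223, block B4b of helper84: the pointwise estimate. -/

namespace Vale.Agent.P223.R2.H887

open scoped ContDiff Topology ENNReal
open MeasureTheory Vale.Agent.P223.H Vale.Agent.P223.X Vale.Agent.P223.X.WtX
  Vale.Agent.P223.X.DensX Vale.Agent.P223.R2.H84 Set Filter Function

theorem pd_compΦ {n : ℕ} {h : E n → ℝ} {Φ : E n → E n} {y : E n} (hh : DifferentiableAt ℝ h (Φ y))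
    (hΦ : DifferentiableAt ℝ Φ y) (j : Fin n) :
    H.pd j (fun y' => h (Φ y')) y =
      ∑ k, H.pd k h (Φ y) * fderiv ℝ Φ y (Pi.single j 1) k := by
  have h3 : fderiv ℝ (fun y' => h (Φ y')) y = (fderiv ℝ h (Φ y)).comp (fderiv ℝ Φ y) :=
    (hh.hasFDerivAt.comp y hΦ.hasFDerivAt).fderiv
  simp only [H.pd, h3, ContinuousLinearMap.comp_apply]
  set w := fderiv ℝ Φ y (Pi.single j 1)
  have hw : w = ∑ k, w k • (Pi.single k (1 : ℝ) : E n) := by
    ext j
    simp [Finset.sum_apply, Pi.single_apply]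
  conv_lhs => rw [hw]
  rw [map_sum]
  simp only [map_smul, smul_eq_mul]
  exact Finset.sum_congr rfl fun k _ => mul_comm _ _

theorem jdet_comp {n : ℕ} {h : Fin n → E n → ℝ} {Φ : E n → E n} {y : E n}
    (hh : ∀ k, DifferentiableAt ℝ (h k) (Φ y)) (hΦ : DifferentiableAt ℝ Φ y) :
    jdet (fun k y' => h k (Φ y')) y = jdet h (Φ y) * (fderiv ℝ Φ y).det := by
  have h1 : (fderiv ℝ Φ y).det =
      (LinearMap.toMatrix' ((fderiv ℝ Φ y : E n →L[ℝ] E n) : E n →ₗ[ℝ] E n)).det := by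
    rw [LinearMap.det_toMatrix']
  rw [jdet, jdet, h1, ← Matrix.det_mul]
  congr 1
  ext a b
  rw [Matrix.mul_apply, Matrix.of_apply, pd_compΦ (hh a) hΦ]
  refine Finset.sum_congr rfl fun k _ => ?_
  rw [Matrix.of_apply, LinearMap.toMatrix'_apply]
  rfl

theorem specPt : SpecPt := by
  intro n M N X W Γ I I' _ _ _ _ _ _ _ _ _ _ _ C C' F hF G hG P P' hP hPF l hl i γ y j γ₀ Φ hΦ hev
  have e0 : C'.rep (P'.fn (l 0)) γ i y = P'.φ () (γ • C'.ψ i y) := by
    rw [Cov.rep, PUX.fn, hl]; simp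
  set δ : Fin n → Γ := fun k => (l k.succ).1⁻¹ * (γ * γ₀) with hδ
  set h : Fin n → E n → ℝ := fun k => C.rep (P.φ ()) (δ k) j with hh
  have hdiff : ∀ k, DifferentiableAt ℝ (h k) (Φ y) := fun k =>
    ((P.smooth () (δ k) j).differentiable one_ne_zero).differentiableAt
  have hev2 : ∀ k : Fin n, C'.rep (P'.fn (l k.succ)) γ i =ᶠ[𝓝 y] fun y' => h k (Φ y') := by
    intro k
    filter_upwards [hev] with y' hy'
    simp only [hh, hδ, Cov.rep, PUX.fn]
    rw [hPF, hF.equiv, hF.equiv, hy', smul_smul, smul_smul, mul_assoc]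
  have hpd : ∀ (k a : Fin n), H.pd a (C'.rep (P'.fn (l k.succ)) γ i) y =
      H.pd a (fun y' => h k (Φ y')) y := by
    intro k a
    rw [H.pd, H.pd, (hev2 k).fderiv_eq]
  have hj : jdet (fun k : Fin n => C'.rep (P'.fn (l k.succ)) γ i) y =
      jdet h (Φ y) * (fderiv ℝ Φ y).det := by
    rw [← jdet_comp hdiff hΦ, jdet, jdet]
    congr 1
    ext a b
    exact hpd a b
  have hpt : ∀ k : Fin n, F ((l k.succ).1⁻¹ • γ • C'.ψ i y) = δ k • C.ψ j (Φ y) := by
    intro k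
    rw [hF.equiv, hF.equiv, hev.self_of_nhds, smul_smul, smul_smul, mul_assoc]
  have hle := Norm.jdet_le (G j) h (Φ y) (hG.pos j (Φ y))
  have e1 : ∀ k : Fin n, gradSq (G j) (h k) (Φ y) =
      gsX C G (P.φ ()) (F ((l k.succ).1⁻¹ • γ • C'.ψ i y)) := by
    intro k
    rw [hpt, gsX_eq hG]
  simp only [e1] at hle
  have hP' : 0 ≤ P'.φ () (γ • C'.ψ i y) := by
    rw [hPF]; exact hP _
  rw [e0, hj, abs_mul, abs_of_nonneg hP', abs_mul,
    ← ENNReal.ofReal_prod_of_nonneg fun i _ => Real.sqrt_nonneg _,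
    ← ENNReal.ofReal_mul hP', ← ENNReal.ofReal_mul
      (mul_nonneg hP' (Finset.prod_nonneg fun i _ => Real.sqrt_nonneg _))]
  refine ENNReal.ofReal_le_ofReal ?_
  rw [mul_assoc]
  refine mul_le_mul_of_nonneg_left ?_ hP'
  calc |jdet h (Φ y)| * |(fderiv ℝ Φ y).det|
      ≤ (H.dens (G j) (Φ y) * ∏ k : Fin n,
          √(gsX C G (P.φ ()) (F ((l k.succ).1⁻¹ • γ • C'.ψ i y)))) * |(fderiv ℝ Φ y).det| :=
        mul_le_mul_of_nonneg_right hle (abs_nonneg _)
    _ = _ := by ring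

end Vale.Agent.P223.R2.H887
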