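import Vale.Agent.P223.R2.H84.SpecDeg
import Vale.Agent.P223.X.BoxU

/-! P223, modifications, row D4: from the boxes to the whole space (helper887). -/

namespace Vale.Agent.P223.R2.H887.Glob

open scoped ContDiff Topology ENNReal
open MeasureTheory Vale.Agent.P223.H Vale.Agent.P223.X Vale.Agent.P223.R2.H84 Set Filter

section
variable {n : ℕ} {X : Type} [TopologicalSpace X] [MeasurableSpace X] [BorelSpace X]

/-- Every neighbourhood contains a measurable set of positive finite volume. -/
theorem exists_small (c : X → J.Ch n X) (g0 : X → J.Mtx n) (μ0 : Measure X) (hA : J.Atl c)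
    (hM : J.Met c g0) (hV : J.Vol c g0 μ0) {p : X} {U : Set X} (hU : U ∈ 𝓝 p) :
    ∃ s ⊆ U, MeasurableSet s ∧ μ0 s ≠ 0 ∧ μ0 s ≠ ⊤ := by
  have hp : p ∈ (c p).source := (hA p).1
  obtain ⟨h1, h2, -⟩ := hM p p hp
  -- continuity of the density
  have hc : ContinuousAt (fun x => √(g0 p x).det) (c p p) := by
    refine ContinuousAt.comp (g := Real.sqrt) Real.continuous_sqrt.continuousAt ?_
    have hg : ContinuousAt (fun x => g0 p x) (c p p) :=
      continuousAt_pi.2 fun i => continuousAt_pi.2 fun j => (h1 i j).continuousAt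
    exact (Continuous.matrix_det continuous_id).continuousAt.comp hg
  have hpos : 0 < √(g0 p (c p p)).det := Real.sqrt_pos.2 h2.det_pos
  set a : ℝ := √(g0 p (c p p)).det with ha
  have h3 : ∀ᶠ x in 𝓝 (c p p), a / 2 < √(g0 p x).det ∧ √(g0 p x).det < 2 * a :=
    (hc.eventually (lt_mem_nhds (by linarith))).and (hc.eventually (gt_mem_nhds (by linarith)))
  have h4 : ∀ᶠ x in 𝓝 (c p p), x ∈ (c p).target := (c p).open_target.mem_nhds ((c p).map_source hp)
  have h5 : ∀ᶠ x in 𝓝 (c p p), (c p).symm x ∈ U := by
    have hs : ContinuousAt (c p).symm (c p p) := (c p).continuousAt_symm ((c p).map_source hp)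
    refine hs.eventually ?_
    rw [(c p).left_inv hp]
    exact hU
  obtain ⟨ε, hε, hB⟩ := Metric.eventually_nhds_iff_ball.1 (h3.and (h4.and h5))
  refine ⟨(c p).symm '' Metric.ball (c p p) ε, ?_, ?_, ?_⟩
  · rintro _ ⟨x, hx, rfl⟩
    exact (hB x hx).2.2
  · refine IsOpen.measurableSet ?_
    exact (c p).isOpen_image_symm_of_subset_target Metric.isOpen_ball fun x hx => (hB x hx).2.1
  · rw [hV p (Metric.ball (c p p) ε) (fun x hx => (hB x hx).2.1) Metric.isOpen_ball.measurableSet]
    constructor
    · have : ENNReal.ofReal (a / 2) * volume (Metric.ball (c p p) ε) ≤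
          ∫⁻ x in Metric.ball (c p p) ε, ENNReal.ofReal √(g0 p x).det := by
        rw [← setLIntegral_const]
        exact setLIntegral_mono' Metric.isOpen_ball.measurableSet fun x hx =>
          ENNReal.ofReal_le_ofReal (hB x hx).1.1.le
      have h6 : ENNReal.ofReal (a / 2) * volume (Metric.ball (c p p) ε) ≠ 0 :=
        mul_ne_zero (by simpa using hpos) (Metric.measure_ball_pos _ _ hε).ne'
      exact (lt_of_lt_of_le (pos_iff_ne_zero.2 h6) this).ne'
    · have : ∫⁻ x in Metric.ball (c p p) ε, ENNReal.ofReal √(g0 p x).det ≤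
          ENNReal.ofReal (2 * a) * volume (Metric.ball (c p p) ε) := by
        rw [← setLIntegral_const]
        exact setLIntegral_mono' Metric.isOpen_ball.measurableSet fun x hx =>
          ENNReal.ofReal_le_ofReal (hB x hx).1.2.le
      refine (lt_of_le_of_lt this ?_).ne
      exact ENNReal.mul_lt_top ENNReal.ofReal_lt_top Metric.isBounded_ball.measure_lt_top

end

/-- ROW D4 -/
theorem specGlobDeg : SpecGlobDeg := by
  intro n X I _ _ _ _ _ _ _ c B g0 μ0 ν hA hM hV h
  choose k hk using h
  have hemb : ∀ j, Topology.IsOpenEmbedding (B.β j) := fun j => BoxU.emb_β B j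
  have hin : ∀ j (s : Set X), MeasurableSet s → s ⊆ range (B.β j) → ν s = k j * μ0 s := by
    intro j s hs hsub
    have h1 := congrArg (fun m : Measure (E n) => m (B.β j ⁻¹' s)) (hk j)
    have hme := (hemb j).measurableEmbedding
    simp only [Measure.smul_apply] at h1
    rw [hme.comap_apply, hme.comap_apply, image_preimage_eq_of_subset hsub] at h1
    rw [h1]
    rfl
  have hopen : ∀ j, IsOpen (range (B.β j)) := fun j => (hemb j).isOpen_range
  have hcov : ∀ p : X, ∃ j, p ∈ range (B.β j) := by
    intro p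
    obtain ⟨j, y, -, hy⟩ := B.cover p
    exact ⟨j, y, hy⟩
  have heq : ∀ i j (p : X), p ∈ range (B.β i) → p ∈ range (B.β j) → k i = k j := by
    intro i j p hi hj
    obtain ⟨s, hs, hsm, h0, h1⟩ := exists_small c g0 μ0 hA hM hV
      (((hopen i).inter (hopen j)).mem_nhds ⟨hi, hj⟩)
    have h2 := hin i s hsm fun x hx => (hs hx).1
    rw [hin j s hsm fun x hx => (hs hx).2] at h2
    have h3 := (ENNReal.mul_left_inj h0 h1).1 h2
    exact_mod_cast h3.symm
  choose idx hidx using hcov
  have hloc : IsLocallyConstant fun p => k (idx p) := by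
    rw [IsLocallyConstant.iff_eventually_eq]
    intro p
    filter_upwards [(hopen (idx p)).mem_nhds (hidx p)] with q hq
    exact heq _ _ q (hidx q) hq
  obtain ⟨p0⟩ := (inferInstance : Nonempty X)
  refine ⟨k (idx p0), ?_⟩
  have hall : ∀ j, k j = k (idx p0) := by
    intro j
    have h1 : k (idx (B.β j 0)) = k (idx p0) := hloc.apply_eq_of_preconnectedSpace _ _
    rw [← h1]
    exact heq _ _ (B.β j 0) (mem_range_self _) (hidx _)
  have hU : ⋃ j, range (B.β j) = univ := by
    refine eq_univ_of_forall fun p => mem_iUnion.2 ⟨idx p, hidx p⟩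
  rw [Measure.ext_iff_of_iUnion_eq_univ hU]
  intro j
  ext t ht
  rw [Measure.restrict_apply ht, Measure.restrict_apply ht,
    hin j _ (ht.inter (hopen j).measurableSet) inter_subset_right, hall j, Measure.smul_apply]
  rfl

end Vale.Agent.P223.R2.H887.Glob
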