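import Vale.Agent.P223.R2.H887.Push
import Vale.Agent.P223.R2.H84.SpecSub

/-! P223, modifications, row E2: partitions of unity on a component (helper887). -/

namespace Vale.Agent.P223.R2.H887.SubP

open scoped ContDiff Topology ENNReal
open MeasureTheory Vale.Agent.P223.H Vale.Agent.P223.X Vale.Agent.P223.X.WtX
  Vale.Agent.P223.R2.H84 Set Filter Function

theorem ig_expand' {n : ℕ} {Λ : Type} (T : Fin (n + 1) → Finset Λ)
    (f : Fin (n + 1) → Λ → E n → ℝ) (hf : ∀ k a, ContDiff ℝ 1 (f k a)) (y : E n) :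
    B6b.ig (fun k z => ∑ a ∈ T k, f k a z) y =
      ∑ l ∈ Fintype.piFinset T, B6b.ig (fun k => f k (l k)) y := by
  classical
  simp only [Push.ig_eq]
  rw [← MultilinearMap.map_sum_finset (Push.dv n)
    (fun k a => ((f k a y, fun j => pd j (f k a) y) : ℝ × (Fin n → ℝ))) T]
  congr 1
  funext k
  refine Prod.ext ?_ ?_
  · simp [Prod.fst_sum]
  · funext j
    simp only [Prod.snd_sum, Finset.sum_apply, pd]
    rw [fderiv_fun_sum fun a _ => (hf k a).differentiable one_ne_zero y]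
    simp

section
variable {Γ : Type} [Group Γ]

/-- Regrouping of a sum over a group by representatives of cosets. -/
theorem sum_coset (Γ0 : Subgroup Γ) (F : Γ → ℝ) (hF : (support F).Finite) (R : Finset Γ)
    (hinj : ∀ c ∈ R, ∀ c' ∈ R, ∀ γ γ' : Γ0, (γ : Γ) * c = γ' * c' → c = c')
    (hsur : ∀ g, F g ≠ 0 → ∃ γ : Γ0, ∃ c ∈ R, (γ : Γ) * c = g) :
    ∑ᶠ γ : Γ0, ∑ c ∈ R, F (γ * c) = ∑ᶠ g, F g := by
  classical
  have hi : Injective fun q : Γ0 × R => (q.1 : Γ) * (q.2 : Γ) := by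
    rintro ⟨γ, c⟩ ⟨γ', c'⟩ h
    have h' : (γ : Γ) * (c : Γ) = γ' * c' := h
    have h1 : (c : Γ) = c' := hinj c c.2 c' c'.2 γ γ' h'
    rw [h1] at h'
    exact Prod.ext (Subtype.ext (mul_right_cancel h')) (Subtype.ext h1)
  have h1 : ∑ᶠ g, F g = ∑ᶠ g ∈ range fun q : Γ0 × R => (q.1 : Γ) * (q.2 : Γ), F g := by
    rw [← finsum_mem_univ]
    refine finsum_mem_inter_support_eq' _ _ _ fun g hg => ?_
    refine ⟨fun _ => ?_, fun _ => mem_univ _⟩
    obtain ⟨γ, c, hc, h⟩ := hsur g hg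
    exact ⟨(γ, ⟨c, hc⟩), h⟩
  rw [h1, finsum_mem_range hi, finsum_curry]
  · refine finsum_congr fun γ => ?_
    rw [finsum_eq_sum_of_fintype]
    exact (Finset.sum_coe_sort R fun c => F (γ * c)).symm
  · exact hF.preimage hi.injOn

/-- representatives of cosets -/
theorem exists_rep (Γ0 : Subgroup Γ) {S : Set Γ} (hS : S.Finite) :
    ∃ R : Finset Γ, (∀ c ∈ R, ∀ c' ∈ R, ∀ γ γ' : Γ0, (γ : Γ) * c = γ' * c' → c = c') ∧
      ∀ g ∈ S, ∃ γ : Γ0, ∃ c ∈ R, (γ : Γ) * c = g := by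
  classical
  let rep : Γ → Γ := fun g => (Quotient.mk (QuotientGroup.rightRel Γ0) g).out
  have h1 : ∀ g, g * (rep g)⁻¹ ∈ Γ0 := by
    intro g
    have : (QuotientGroup.rightRel Γ0) (rep g) g := Quotient.mk_out (s := QuotientGroup.rightRel Γ0) g
    rwa [QuotientGroup.rightRel_apply] at this
  have h2 : ∀ (γ : Γ0) g, rep (γ * g) = rep g := by
    intro γ g
    have : Quotient.mk (QuotientGroup.rightRel Γ0) ((γ : Γ) * g) =
        Quotient.mk (QuotientGroup.rightRel Γ0) g := by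
      refine Quotient.sound ?_
      show (QuotientGroup.rightRel Γ0) _ _
      rw [QuotientGroup.rightRel_apply]
      have : g * ((γ : Γ) * g)⁻¹ = ((γ⁻¹ : Γ0) : Γ) := by simp
      rw [this]
      exact (γ⁻¹).2
    show (Quotient.mk (QuotientGroup.rightRel Γ0) ((γ : Γ) * g)).out = _
    rw [this]
  have h3 : ∀ g, rep (rep g) = rep g := by
    intro g
    have := h2 ⟨_, h1 g⟩ (rep g)
    rw [← this]
    simp
  refine ⟨hS.toFinset.image rep, ?_, ?_⟩
  · intro c hc c' hc' γ γ' h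
    obtain ⟨g, -, rfl⟩ := Finset.mem_image.1 hc
    obtain ⟨g', -, rfl⟩ := Finset.mem_image.1 hc'
    rw [← h3 g, ← h3 g', ← h2 γ (rep g), ← h2 γ' (rep g'), h]
  · intro g hg
    exact ⟨⟨_, h1 g⟩, rep g, Finset.mem_image_of_mem _ (hS.mem_toFinset.2 hg), by simp⟩

end

/-- ROW E2 -/
theorem specSubP : SpecSubP := by
  classical
  intro n M W W0 Γ I _ _ _ _ Γ0 _ _ _ _ _ _ _ C C0 ι hι he hp hψ hn P hP s D hD
  choose a ha using Push.exists_a C0 C ι hp (fun i y => (hψ i y).symm)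
  have hψ' : ∀ i y, ι (C0.ψ i y) = (a i)⁻¹ • C.ψ i y := by
    intro i y
    rw [← ha i y, inv_smul_smul]
  -- the compact set of `W0`
  have hK0 : IsCompact (⋃ i, C0.ψ i '' {y : E n | ‖y‖ ≤ 1}) := isCompact_core C0 1
  have hS : {g : Γ | ∃ x ∈ ι '' (⋃ i, C0.ψ i '' {y : E n | ‖y‖ ≤ 1}),
      g • x ∈ tsupport (P.φ ())}.Finite :=
    DensX.proper0 C (hK0.image ι.continuous) (P.supp ())
  obtain ⟨R, hR1, hR2⟩ := exists_rep Γ0 (hS.preimage (f := fun g : Γ => g⁻¹) inv_injective.injOn)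
  have hR3 : ∀ (g : Γ) (w : W0), P.φ () (g⁻¹ • ι w) ≠ 0 → ∃ γ : Γ0, ∃ c ∈ R, (γ : Γ) * c = g := by
    intro g w hg
    obtain ⟨γ, i, y, hy, rfl⟩ := C0.cover w
    have h1 : ((γ⁻¹ : Γ0) : Γ) * g ∈ (fun g : Γ => g⁻¹) ⁻¹'
        {g : Γ | ∃ x ∈ ι '' (⋃ i, C0.ψ i '' {y : E n | ‖y‖ ≤ 1}), g • x ∈ tsupport (P.φ ())} := by
      refine ⟨ι (C0.ψ i y), ⟨_, mem_iUnion.2 ⟨i, y, ?_, rfl⟩, rfl⟩, ?_⟩
      · exact (pi_norm_le_iff_of_nonneg zero_le_one).2 fun k => (hy k).le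
      · refine subset_tsupport _ ?_
        rw [he] at hg
        have h2 : (((γ⁻¹ : Γ0) : Γ) * g)⁻¹ • ι (C0.ψ i y) = g⁻¹ • (γ : Γ) • ι (C0.ψ i y) := by
          rw [mul_inv_rev, mul_smul]
          simp
        show P.φ () ((((γ⁻¹ : Γ0) : Γ) * g)⁻¹ • ι (C0.ψ i y)) ≠ 0
        rwa [h2]
    obtain ⟨γ', c, hc, h⟩ := hR2 _ h1
    refine ⟨γ * γ', c, hc, ?_⟩
    rw [Subgroup.coe_mul, mul_assoc, h]
    simp
  have hfin : ∀ x : W, (support fun g : Γ => P.φ () (g⁻¹ • x)).Finite := by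
    intro x
    have h1 := DensX.proper0 C (isCompact_singleton (x := x)) (P.supp ())
    refine (h1.preimage (f := fun g : Γ => g⁻¹) inv_injective.injOn).subset fun g hg => ?_
    exact ⟨x, rfl, subset_tsupport _ hg⟩
  have hrep : ∀ (l : Γ0) (γ : Γ0) i y (c : Γ),
      P.φ () (c⁻¹ • ι (l⁻¹ • γ • C0.ψ i y)) =
        C.rep (P.fn ((l : Γ) * c, ())) ((γ : Γ) * (a i)⁻¹) i y := by
    intro l γ i y c
    show _ = P.φ () (((l : Γ) * c)⁻¹ • ((γ : Γ) * (a i)⁻¹) • C.ψ i y)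
    rw [he, he, hψ', mul_inv_rev, mul_smul, mul_smul, Subgroup.coe_inv]
  let P0 : PUX C0 Unit :=
    { φ := fun _ w => ∑ c ∈ R, P.φ () (c⁻¹ • ι w)
      smooth := by
        intro _ γ i
        have h1 : C0.rep (fun w => ∑ c ∈ R, P.φ () (c⁻¹ • ι w)) γ i =
            fun y => ∑ c ∈ R, C.rep (P.φ ()) (c⁻¹ * ((γ : Γ) * (a i)⁻¹)) i y := by
          funext y
          refine Finset.sum_congr rfl fun c _ => ?_
          show P.φ () (c⁻¹ • ι (γ • C0.ψ i y)) = P.φ () ((c⁻¹ * ((γ : Γ) * (a i)⁻¹)) • C.ψ i y)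
          rw [he, hψ', mul_smul, mul_smul]
        rw [h1]
        exact ContDiff.sum fun c _ => P.smooth () _ i
      supp := by
        intro _
        have h1 : ∀ c : Γ, HasCompactSupport fun w : W0 => P.φ () (c⁻¹ • ι w) := by
          intro c
          exact ((P.supp ()).comp_homeomorph
            (⟨MulAction.toPerm c⁻¹, C.cont c⁻¹, C.cont (c⁻¹)⁻¹⟩ : W ≃ₜ W)).comp_isClosedEmbedding hι
        have h2 : ∀ T : Finset Γ, HasCompactSupport fun w : W0 => ∑ c ∈ T, P.φ () (c⁻¹ • ι w) := by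
          intro T
          induction T using Finset.induction_on with
          | empty =>
            simp only [Finset.sum_empty]
            exact HasCompactSupport.zero
          | insert c T hc ih =>
            simp only [Finset.sum_insert hc]
            exact (h1 c).add ih
        exact h2 R
      sum := by
        intro w
        have h1 := P.sum (ι w)
        simp only [Finset.univ_unique, Finset.sum_singleton] at h1 ⊢
        rw [← h1, ← sum_coset Γ0 (fun g => P.φ () (g⁻¹ • ι w)) (hfin _) R hR1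
          fun g hg => hR3 g w hg]
        refine finsum_congr fun γ => Finset.sum_congr rfl fun c _ => ?_
        rw [he, mul_inv_rev, mul_smul, Subgroup.coe_inv] }
  refine ⟨P0, fun w => ∑ c ∈ R, s (c⁻¹ • ι w), fun w => Finset.sum_nonneg fun c _ => hP _, ?_, ?_⟩
  · intro l hl i γ y
    have h1 : ∀ k, C0.rep (P0.fn (l k)) γ i =
        fun y => ∑ c ∈ R, C.rep (P.fn (((l k).1 : Γ) * c, ())) ((γ : Γ) * (a i)⁻¹) i y := by
      intro k
      funext y
      exact Finset.sum_congr rfl fun c _ => hrep (l k).1 γ i y c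
    have h2 : C0.rep (P0.fn (l 0)) γ i y * jdet (fun k : Fin n => C0.rep (P0.fn (l k.succ)) γ i) y =
        ∑ cc ∈ Fintype.piFinset (fun _ : Fin (n + 1) => R), B6b.ig
          (fun k => C.rep (P.fn (((l k).1 : Γ) * cc k, ())) ((γ : Γ) * (a i)⁻¹) i) y := by
      show B6b.ig (fun k => C0.rep (P0.fn (l k)) γ i) y = _
      simp only [h1]
      exact ig_expand' _ (fun k c => C.rep (P.fn (((l k).1 : Γ) * c, ())) ((γ : Γ) * (a i)⁻¹) i)
        (fun k c => (fn_cc P _).1 _ i) y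
    have h3 : ∀ cc ∈ Fintype.piFinset (fun _ : Fin (n + 1) => R), ENNReal.ofReal |B6b.ig
          (fun k => C.rep (P.fn (((l k).1 : Γ) * cc k, ())) ((γ : Γ) * (a i)⁻¹) i) y| ≤
        ENNReal.ofReal (P.φ () ((cc 0)⁻¹ • ι (γ • C0.ψ i y))) *
        (∏ k : Fin n, s ((cc k.succ)⁻¹ • ι ((l k.succ).1⁻¹ • γ • C0.ψ i y))) * D i y := by
      intro cc _
      have h4 := hD (fun k => ((cc 0)⁻¹ * (l k).1 * cc k, ())) (by simp [hl]) i
        ((cc 0)⁻¹ * γ * (a i)⁻¹) y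
      have h5 : ∀ k, C.rep (P.fn ((cc 0)⁻¹ * (l k).1 * cc k, ())) ((cc 0)⁻¹ * γ * (a i)⁻¹) i =
          C.rep (P.fn (((l k).1 : Γ) * cc k, ())) ((γ : Γ) * (a i)⁻¹) i := by
        intro k
        funext z
        show P.φ () (((cc 0)⁻¹ * (l k).1 * cc k)⁻¹ • ((cc 0)⁻¹ * γ * (a i)⁻¹) • C.ψ i z) =
          P.φ () ((((l k).1 : Γ) * cc k)⁻¹ • ((γ : Γ) * (a i)⁻¹) • C.ψ i z)
        rw [smul_smul, smul_smul]
        congr 2
        group
      have h6 : ((cc 0)⁻¹ * γ * (a i)⁻¹) • C.ψ i y = (cc 0)⁻¹ • ι (γ • C0.ψ i y) := by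
        rw [he, hψ', mul_smul, mul_smul]
      have h7 : ∀ k : Fin n, ((cc 0)⁻¹ * (l k.succ).1 * cc k.succ)⁻¹ •
          ((cc 0)⁻¹ * γ * (a i)⁻¹) • C.ψ i y =
          (cc k.succ)⁻¹ • ι ((l k.succ).1⁻¹ • γ • C0.ψ i y) := by
        intro k
        rw [he, he, hψ', smul_smul, smul_smul, smul_smul, smul_smul, Subgroup.coe_inv]
        congr 1
        group
      simp only [h5] at h4
      simp only [h6] at h4 h7
      simp only [h7] at h4
      exact h4
    rw [h2]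
    refine (ENNReal.ofReal_le_ofReal (Finset.abs_sum_le_sum_abs _ _)).trans ?_
    rw [ENNReal.ofReal_sum_of_nonneg fun _ _ => abs_nonneg _]
    refine (Finset.sum_le_sum h3).trans (le_of_eq ?_)
    rw [← Finset.sum_mul]
    congr 1
    have h8 := Finset.prod_univ_sum (fun _ : Fin (n + 1) => R)
      (Fin.cons (fun c : Γ => ENNReal.ofReal (P.φ () (c⁻¹ • ι (γ • C0.ψ i y))))
        fun (k : Fin n) (c : Γ) => s (c⁻¹ • ι ((l k.succ).1⁻¹ • γ • C0.ψ i y)) :
        Fin (n + 1) → Γ → ℝ≥0∞)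
    simp only [Fin.prod_univ_succ, Fin.cons_zero, Fin.cons_succ] at h8
    rw [← h8]
    congr 1
    exact (ENNReal.ofReal_sum_of_nonneg fun c _ => hP _).symm
  · intro w
    have hi : Injective fun q : Γ0 × R => (q.2 : Γ)⁻¹ * (q.1 : Γ) := by
      rintro ⟨γ, c⟩ ⟨γ', c'⟩ h
      have h' : (c : Γ)⁻¹ * (γ : Γ) = (c' : Γ)⁻¹ * (γ' : Γ) := h
      have h0 : ((γ⁻¹ : Γ0) : Γ) * (c : Γ) = ((γ'⁻¹ : Γ0) : Γ) * c' := by
        have := congrArg (fun g : Γ => g⁻¹) h'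
        simpa [mul_inv_rev] using this
      have h1 : (c : Γ) = c' := hR1 c c.2 c' c'.2 _ _ h0
      rw [h1] at h'
      exact Prod.ext (Subtype.ext (mul_left_cancel h')) (Subtype.ext h1)
    refine le_trans (le_of_eq ?_) (ENNReal.tsum_comp_le_tsum_of_injective hi
      fun g => s (g • ι w))
    refine Eq.trans ?_ (ENNReal.tsum_prod
      (f := fun (γ : Γ0) (c : R) => s (((c : Γ)⁻¹ * (γ : Γ)) • ι w))).symm
    refine tsum_congr fun γ => ?_
    rw [tsum_fintype]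
    rw [Finset.sum_coe_sort R fun c => s ((c⁻¹ * (γ : Γ)) • ι w)]
    refine Finset.sum_congr rfl fun c _ => ?_
    rw [he, mul_smul]

end Vale.Agent.P223.R2.H887.SubP
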