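import Vale.Agent.P223.X.WtX
import Vale.Agent.P223.R2.H84.SpecAm

/-! P223, modifications, row R2: push forward of partitions of unity (helper887). -/

namespace Vale.Agent.P223.R2.H887.Push

open scoped ContDiff Topology
open MeasureTheory Vale.Agent.P223.H Vale.Agent.P223.X Vale.Agent.P223.X.WtX
  Vale.Agent.P223.R2.H84 Set Filter Function

/-! ### expansion of the integrand -/

/-- `v ↦ (v 0).1 * det (v k.succ).2` -/
noncomputable def dv (n : ℕ) : MultilinearMap ℝ (fun _ : Fin (n + 1) => ℝ × (Fin n → ℝ)) ℝ :=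
  LinearMap.uncurryLeft ((LinearMap.fst ℝ ℝ (Fin n → ℝ)).smulRight
    ((Matrix.detRowAlternating (n := Fin n) (R := ℝ)).toMultilinearMap.compLinearMap
      fun _ => LinearMap.snd ℝ ℝ (Fin n → ℝ)))

theorem ig_eq {n : ℕ} (f : Fin (n + 1) → E n → ℝ) (y : E n) :
    B6b.ig f y = dv n (fun k => (f k y, fun j => pd j (f k) y)) := by
  rfl

theorem ig_expand {n : ℕ} {Λ : Type} (T : Fin (n + 1) → Finset Λ) (f : Λ → E n → ℝ)
    (hf : ∀ a, ContDiff ℝ 1 (f a)) (y : E n) :
    B6b.ig (fun k z => ∑ a ∈ T k, f a z) y =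
      ∑ l ∈ Fintype.piFinset T, B6b.ig (fun k => f (l k)) y := by
  classical
  simp only [ig_eq]
  rw [← MultilinearMap.map_sum_finset (dv n)
    (fun _ a => ((f a y, fun j => pd j (f a) y) : ℝ × (Fin n → ℝ))) T]
  congr 1
  funext k
  refine Prod.ext ?_ ?_
  · simp [Prod.fst_sum]
  · funext j
    simp only [Prod.snd_sum, Finset.sum_apply, pd]
    rw [fderiv_fun_sum fun a _ => (hf a).differentiable one_ne_zero y]
    simp

/-! ### weights in one chart -/

section
variable {n : ℕ} {M X G I : Type} [TopologicalSpace M] [TopologicalSpace X] [Group G]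
    [MulAction G X] [Fintype I] {ι : Type} [Fintype ι]

/-- translation of indices -/
def tl (γ : G) (l : Fin (n + 1) → G × ι) : Fin (n + 1) → G × ι := fun k => (γ * (l k).1, (l k).2)

omit [Fintype ι] in
theorem tl_tl (γ δ : G) (l : Fin (n + 1) → G × ι) : tl γ (tl δ l) = tl (γ * δ) l := by
  funext k; simp [tl, mul_assoc]

omit [Fintype ι] in
theorem tl_one (l : Fin (n + 1) → G × ι) : tl 1 l = l := by
  funext k; simp [tl]

/-- translation as an equivalence -/
def tlE (γ : G) : (Fin (n + 1) → G × ι) ≃ (Fin (n + 1) → G × ι) where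
  toFun := tl γ
  invFun := tl γ⁻¹
  left_inv l := by rw [tl_tl, inv_mul_cancel, tl_one]
  right_inv l := by rw [tl_tl, mul_inv_cancel, tl_one]

/-- the part of the weight in the chart `ψ j` -/
noncomputable def wj (C : Cov n M X G I) (χ : I → E n → ℝ) (P : PUX C ι) (j : I)
    (l : Fin (n + 1) → G × ι) : ℝ :=
  ∫ y, χ j y * igx C (fun k => P.fn (l k)) 1 j y

theorem wt_eq (C : Cov n M X G I) (χ : I → E n → ℝ) (P : PUX C ι) (l : Fin (n + 1) → G × ι) :
    P.wt χ l = ∑ j, ∑ᶠ γ : G, wj C χ P j (tl γ⁻¹ l) := by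
  unfold PUX.wt wtX wj
  refine Finset.sum_congr rfl fun j _ => finsum_congr fun γ => ?_
  have h : ∀ k, C.rep (P.fn (l k)) γ j = C.rep (P.fn (tl γ⁻¹ l k)) 1 j := by
    intro k
    funext y
    simp only [Cov.rep, PUX.fn, tl, one_smul, mul_inv_rev, inv_inv, mul_smul]
  unfold igx B6b.ig
  simp only [h]

omit [Fintype I] in
/-- a finite set of indices outside which all functions vanish near a compact set -/
theorem near' (C : Cov n M X G I) (P : PUX C ι) {K : Set X} (hK : IsCompact K) :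
    ∃ T : Finset G, ∀ x ∈ K, ∀ᶠ x' in 𝓝 x, ∀ ν : G × ι, ν.1 ∉ T → P.fn ν x' = 0 := by
  obtain ⟨K', hK'c, hKK'⟩ := exists_nhd C hK
  have hfin : {γ : G | ∃ x ∈ sup P, γ • x ∈ K'}.Finite := DensX.proper0 C (compact_sup P) hK'c
  refine ⟨hfin.toFinset, fun x hx => ?_⟩
  filter_upwards [mem_interior_iff_mem_nhds.1 (hKK' hx)] with x' hx' ν hν
  by_contra hne
  refine hν (hfin.mem_toFinset.2 ⟨ν.1⁻¹ • x', mem_sup P ν (subset_tsupport _ hne), ?_⟩)
  rwa [smul_inv_smul]

omit [Fintype I] in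
theorem compact_ball (C : Cov n M X G I) (j : I) :
    IsCompact (C.ψ j '' Metric.closedBall (0 : E n) 2) :=
  (isCompact_closedBall _ _).image (C.emb j).continuous

theorem wj_zero {C : Cov n M X G I} {χ : I → E n → ℝ} (hχ : Part C χ) (P : PUX C ι) (j : I)
    {T : Finset G} (hT : ∀ x ∈ C.ψ j '' Metric.closedBall (0 : E n) 2,
      ∀ᶠ x' in 𝓝 x, ∀ ν : G × ι, ν.1 ∉ T → P.fn ν x' = 0) (l : Fin (n + 1) → G × ι)
    (k : Fin (n + 1)) (hk : (l k).1 ∉ T) : wj C χ P j l = 0 := by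
  have h : ∀ y, χ j y * igx C (fun k => P.fn (l k)) 1 j y = 0 := by
    intro y
    by_cases hy : ‖y‖ ≤ 2
    · have h1 : P.fn (l k) =ᶠ[𝓝 ((1 : G) • C.ψ j y)] fun _ => 0 := by
        rw [one_smul]
        filter_upwards [hT _ ⟨y, by rwa [mem_closedBall_zero_iff], rfl⟩] with x' hx'
        exact hx' _ hk
      have h2 : igx C (fun k => P.fn (l k)) 1 j y = 0 :=
        B6b.ig_zero (k := k) (rep_ev h1)
      rw [h2, mul_zero]
    · rw [hχ.supp j y (not_le.1 hy).le, zero_mul]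
  unfold wj
  simp only [h, integral_zero]

theorem fin_wj {C : Cov n M X G I} {χ : I → E n → ℝ} (hχ : Part C χ) (P : PUX C ι) (j : I) :
    (support (wj C χ P j)).Finite := by
  classical
  obtain ⟨T, hT⟩ := near' C P (compact_ball C j)
  refine ((Fintype.piFinset fun _ : Fin (n + 1) =>
    T ×ˢ (Finset.univ : Finset ι)).finite_toSet).subset fun l hl => ?_
  rw [Finset.mem_coe, Fintype.mem_piFinset]
  intro k
  by_contra hk
  exact hl (wj_zero hχ P j hT l k fun h => hk (Finset.mem_product.2 ⟨h, Finset.mem_univ _⟩))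

/-- normalisation of the first index -/
def nrE : {l : Fin (n + 1) → G × ι // (l 0).1 = 1} × G ≃ (Fin (n + 1) → G × ι) where
  toFun q := tl q.2⁻¹ q.1.1
  invFun m := (⟨tl (m 0).1⁻¹ m, by simp [tl]⟩, (m 0).1⁻¹)
  left_inv := by
    rintro ⟨⟨l, hl⟩, γ⟩
    refine Prod.ext (Subtype.ext ?_) ?_
    · show tl (tl γ⁻¹ l 0).1⁻¹ (tl γ⁻¹ l) = l
      rw [tl_tl]
      have : (tl γ⁻¹ l 0).1⁻¹ * γ⁻¹ = 1 := by simp [tl, hl]
      rw [this, tl_one]
    · show (tl γ⁻¹ l 0).1⁻¹ = γ
      simp [tl, hl]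
  right_inv m := by
    show tl ((m 0).1⁻¹)⁻¹ (tl (m 0).1⁻¹ m) = m
    rw [tl_tl, inv_inv, mul_inv_cancel, tl_one]

theorem sum_wt {C : Cov n M X G I} {χ : I → E n → ℝ} (hχ : Part C χ) (P : PUX C ι)
    (H : (Fin (n + 1) → G) → ℝ) :
    ∑ᶠ l ∈ {l : Fin (n + 1) → G × ι | (l 0).1 = 1}, P.wt χ l * H (fun k => (l k).1) =
      ∑ j, ∑ᶠ l, wj C χ P j l * H (fun k => (l 0).1⁻¹ * (l k).1) := by
  classical
  have hf : ∀ j, (support fun q : {l : Fin (n + 1) → G × ι // (l 0).1 = 1} × G =>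
      wj C χ P j (tl q.2⁻¹ q.1.1) * H (fun k => (q.1.1 k).1)).Finite := by
    intro j
    refine (((fin_wj hχ P j).preimage nrE.injective.injOn)).subset fun q hq => ?_
    exact left_ne_zero_of_mul hq
  rw [← finsum_set_coe_eq_finsum_mem]
  have h1 : ∀ l : {l : Fin (n + 1) → G × ι // (l 0).1 = 1}, P.wt χ l.1 * H (fun k => (l.1 k).1) =
      ∑ j, ∑ᶠ γ : G, wj C χ P j (tl γ⁻¹ l.1) * H (fun k => (l.1 k).1) := by
    intro l
    rw [wt_eq, Finset.sum_mul]
    exact Finset.sum_congr rfl fun j _ => finsum_mul _ _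
  have h2 : ∑ᶠ l : {l : Fin (n + 1) → G × ι // (l 0).1 = 1},
      P.wt χ l.1 * H (fun k => (l.1 k).1) = ∑ᶠ l : {l : Fin (n + 1) → G × ι // (l 0).1 = 1},
      ∑ j, ∑ᶠ γ : G, wj C χ P j (tl γ⁻¹ l.1) * H (fun k => (l.1 k).1) := finsum_congr h1
  refine h2.trans ?_
  rw [finsum_sum_comm]
  · refine Finset.sum_congr rfl fun j _ => ?_
    rw [← finsum_curry _ (hf j), ← finsum_comp_equiv nrE]
    refine finsum_congr fun q => ?_
    have h3 : ∀ k, (nrE q 0).1⁻¹ * (nrE q k).1 = (q.1.1 k).1 := by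
      intro k
      show (q.2⁻¹ * (q.1.1 0).1)⁻¹ * (q.2⁻¹ * (q.1.1 k).1) = _
      rw [q.1.2]
      group
    simp only [h3]
    rfl
  · intro j _
    refine ((hf j).image Prod.fst).subset fun l hl => ?_
    obtain ⟨γ, hγ⟩ : ∃ γ : G, wj C χ P j (tl γ⁻¹ l.1) * H (fun k => (l.1 k).1) ≠ 0 := by
      by_contra hc
      push Not at hc
      refine hl ?_
      simp only [hc, finsum_zero]
    exact ⟨(l, γ), hγ, rfl⟩

end

/-! ### two coverings -/

section
variable {n : ℕ} {M X W G Γ I : Type} [TopologicalSpace M] [TopologicalSpace X]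
  [TopologicalSpace W] [Group G] [Group Γ] [MulAction G X] [MulAction Γ W] [Fintype I] [T2Space X]
  [T2Space W]

omit [Fintype I] [T2Space X] [T2Space W] in
/-- The charts of `W` are translates of the images of the charts of `X`. -/
theorem exists_a (C : Cov n M X G I) (C' : Cov n M W Γ I) (p : C(X, W))
    (hp : ∀ x, C'.π (p x) = C.π x) (hψ : ∀ i y, C'.π (C'.ψ i y) = C.π (C.ψ i y)) (i : I) :
    ∃ a : Γ, ∀ y, a • p (C.ψ i y) = C'.ψ i y := by
  obtain ⟨a, ha⟩ := (C'.orb (p (C.ψ i 0)) (C'.ψ i 0)).1 (by rw [hp, hψ])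
  refine ⟨a, fun y => ?_⟩
  have hc1 : Continuous fun y => a • p (C.ψ i y) :=
    (C'.cont a).comp (p.continuous.comp (C.emb i).continuous)
  have hc2 : Continuous (C'.ψ i) := (C'.emb i).continuous
  have he : C'.π ∘ (fun y => a • p (C.ψ i y)) = C'.π ∘ C'.ψ i := by
    funext z
    show C'.π (a • p (C.ψ i z)) = C'.π (C'.ψ i z)
    rw [hψ, ← hp]
    exact (C'.orb _ _).2 ⟨a⁻¹, inv_smul_smul _ _⟩
  exact congrFun (C'.cov.eq_of_comp_eq hc1 hc2 he 0 ha) y

omit [Fintype I] [T2Space X] [T2Space W] in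
/-- The push forward of the extension by zero. -/
theorem push_ex {C : Cov n M X G I} {C' : Cov n M W Γ I} {ρ : G →* Γ} {p : C(X, W)}
    (he : ∀ (g : G) x, p (g • x) = ρ g • p x) (hp : ∀ x, C'.π (p x) = C.π x) {i : I} {a : Γ}
    (ha : ∀ y, a • p (C.ψ i y) = C'.ψ i y) (χ : E n → ℝ) (T : Finset G) (h : Γ) (x : X)
    (hT : ∀ g, g ∉ T → C.ex i χ (g⁻¹ • x) = 0) [DecidableEq Γ] :
    C'.ex i χ (a • h⁻¹ • p x) = ∑ g ∈ T with ρ g = h, C.ex i χ (g⁻¹ • x) := by
  classical
  have hexW : ∀ y, C'.ex i χ (C'.ψ i y) = χ y := fun y => by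
    unfold Cov.ex Cov.co
    rw [if_pos (mem_range_self y), leftInverse_invFun (C'.emb i).injective y]
  have hexX : ∀ y, C.ex i χ (C.ψ i y) = χ y := fun y => by
    unfold Cov.ex Cov.co
    rw [if_pos (mem_range_self y), leftInverse_invFun (C.emb i).injective y]
  by_cases hx : ∃ (g : G) (y : E n), ρ g = h ∧ g • C.ψ i y = x
  · obtain ⟨g, y, hg, rfl⟩ := hx
    have h1 : a • h⁻¹ • p (g • C.ψ i y) = C'.ψ i y := by
      rw [he, hg, inv_smul_smul, ha]
    have h2 : C.ex i χ (g⁻¹ • g • C.ψ i y) = χ y := by rw [inv_smul_smul, hexX]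
    rw [h1, hexW, ← h2]
    refine Eq.symm (Finset.sum_eq_single g ?_ ?_)
    · intro g' _ hne
      have h3 : ¬ g'⁻¹ • g • C.ψ i y ∈ range (C.ψ i) := by
        rintro ⟨y', hy'⟩
        rw [smul_smul] at hy'
        have := C.inj i _ _ _ hy'.symm
        exact hne (inv_mul_eq_one.1 this)
      exact if_neg h3
    · intro hn
      refine hT g fun hgT => hn ?_
      exact Finset.mem_filter.2 ⟨hgT, hg⟩
  · push Not at hx
    have h1 : ¬ a • h⁻¹ • p x ∈ range (C'.ψ i) := by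
      rintro ⟨y, hy⟩
      rw [← ha y] at hy
      have h2 : p (C.ψ i y) = h⁻¹ • p x := MulAction.injective a hy
      have h3 : C.π (C.ψ i y) = C.π x := by
        rw [← hp, h2, ← hp x]
        exact (C'.orb _ _).2 ⟨h, smul_inv_smul _ _⟩
      obtain ⟨g, hg⟩ := (C.orb _ _).1 h3
      refine hx g y ?_ hg
      have h4 : ρ g • p (C.ψ i y) = h • p (C.ψ i y) := by
        rw [← he, hg, h2, smul_inv_smul]
      have h5 : (h⁻¹ * ρ g) • p (C.ψ i y) = p (C.ψ i y) := by
        rw [mul_smul, h4, inv_smul_smul]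
      exact (inv_mul_eq_one.1 (C'.free _ _ h5)).symm
    have h2 : C'.ex i χ (a • h⁻¹ • p x) = 0 := if_neg h1
    rw [h2]
    refine Eq.symm (Finset.sum_eq_zero fun g hg => ?_)
    have h3 : ¬ g⁻¹ • x ∈ range (C.ψ i) := by
      rintro ⟨y, hy⟩
      exact hx g y (Finset.mem_filter.1 hg).2 (by rw [hy, smul_inv_smul])
    exact if_neg h3

omit [T2Space X] in
theorem cs_chi {C : Cov n M X G I} {χ : I → E n → ℝ} (hχ : Part C χ) (i : I) :
    HasCompactSupport (χ i) := by
  refine HasCompactSupport.of_support_subset_isCompact (isCompact_closedBall (0 : E n) 2)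
    fun y hy => ?_
  rw [mem_closedBall_zero_iff]
  by_contra h
  exact hy (hχ.supp i y (not_le.1 h).le)

theorem cs_ex {C : Cov n M X G I} {χ : I → E n → ℝ} (hχ : Part C χ) (i : I) :
    HasCompactSupport (C.ex i (χ i)) := by
  refine HasCompactSupport.of_support_subset_isCompact (compact_ball C i) fun x hx => ?_
  by_contra h
  refine hx ?_
  by_cases h1 : x ∈ range (C.ψ i)
  · obtain ⟨y, rfl⟩ := h1
    rw [ex_ψ]
    refine hχ.supp i y ?_
    by_contra h2
    exact h ⟨y, by rw [mem_closedBall_zero_iff]; exact (not_le.1 h2).le, rfl⟩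
  · exact if_neg h1

/-- the partition of unity `ex i (χ i)` of `X` -/
noncomputable def PX (C : Cov n M X G I) {χ : I → E n → ℝ} (hχ : Part C χ) : PUX C I where
  φ i := C.ex i (χ i)
  smooth i := Ck_ex C ((hχ.smooth i).of_le (by norm_cast)) (cs_chi hχ i)
  supp := cs_ex hχ
  sum x := by
    rw [← hχ.sum x]
    refine Finset.sum_congr rfl fun i _ => ?_
    exact finsum_comp_equiv (Equiv.inv G) (f := fun γ : G => C.ex i (χ i) (γ • x))

/-- the partition of unity `ex i (χ i) (a i • .)` of `W` -/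
noncomputable def PW (C' : Cov n M W Γ I) {χ : I → E n → ℝ} (hχ : Part C' χ) (a : I → Γ) :
    PUX C' I where
  φ i w := C'.ex i (χ i) (a i • w)
  smooth i := Ck_smul C' (Ck_ex C' ((hχ.smooth i).of_le (by norm_cast)) (cs_chi hχ i)) (a i)
  supp i := (cs_ex hχ i).comp_homeomorph
    (⟨MulAction.toPerm (a i), C'.cont (a i), C'.cont (a i)⁻¹⟩ : W ≃ₜ W)
  sum x := by
    rw [← hχ.sum x]
    refine Finset.sum_congr rfl fun i _ => ?_
    rw [← finsum_comp_equiv ((Equiv.inv Γ).trans (Equiv.mulLeft (a i)))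
      (f := fun γ : Γ => C'.ex i (χ i) (γ • x))]
    refine finsum_congr fun γ => ?_
    show C'.ex i (χ i) (a i • γ⁻¹ • x) = C'.ex i (χ i) ((a i * γ⁻¹) • x)
    rw [mul_smul]

/-- The weights in one chart. -/
theorem wj_push {C : Cov n M X G I} {C' : Cov n M W Γ I} {ρ : G →* Γ} {p : C(X, W)}
    (he : ∀ (g : G) x, p (g • x) = ρ g • p x) (hp : ∀ x, C'.π (p x) = C.π x) {a : I → Γ}
    (ha : ∀ i y, a i • p (C.ψ i y) = C'.ψ i y) {χ : I → E n → ℝ} (hχ : Part C χ)
    (hχ' : Part C' χ) (j : I) (T : Finset G)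
    (hT : ∀ x ∈ C.ψ j '' Metric.closedBall (0 : E n) 2, ∀ᶠ x' in 𝓝 x, ∀ ν : G × I, ν.1 ∉ T →
      (PX C hχ).fn ν x' = 0) (m : Fin (n + 1) → Γ × I) [DecidableEq (Γ × I)] :
    wj C' χ (PW C' hχ' a) j (tl (a j) m) = ∑ l ∈ Fintype.piFinset (fun k =>
      (T ×ˢ (Finset.univ : Finset I)).filter fun ν : G × I => (ρ ν.1, ν.2) = m k),
      wj C χ (PX C hχ) j l := by
  classical
  have hpt : ∀ y, χ j y * igx C' (fun k => (PW C' hχ' a).fn (tl (a j) m k)) 1 j y =
      ∑ l ∈ Fintype.piFinset (fun k =>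
        (T ×ˢ (Finset.univ : Finset I)).filter fun ν : G × I => (ρ ν.1, ν.2) = m k),
        χ j y * igx C (fun k => (PX C hχ).fn (l k)) 1 j y := by
    intro y
    by_cases hy : ‖y‖ ≤ 2
    · rw [← Finset.mul_sum]
      congr 1
      unfold igx
      rw [← ig_expand _ (fun ν => C.rep ((PX C hχ).fn ν) 1 j) fun ν => (fn_cc _ ν).1 1 j]
      refine B6b.ig_congr fun k => ?_
      have h1 := (C.emb j).continuous.continuousAt.eventually
        (hT _ ⟨y, by rwa [mem_closedBall_zero_iff], rfl⟩)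
      filter_upwards [h1] with z hz
      have h2 : C'.rep ((PW C' hχ' a).fn (tl (a j) m k)) 1 j z =
          C'.ex (m k).2 (χ (m k).2) (a (m k).2 • (m k).1⁻¹ • p (C.ψ j z)) := by
        show C'.ex (m k).2 (χ (m k).2) (a (m k).2 • (a j * (m k).1)⁻¹ • (1 : Γ) • C'.ψ j z) = _
        rw [one_smul, mul_inv_rev, mul_smul _ (a j)⁻¹, ← ha j z, inv_smul_smul]
      rw [h2, push_ex he hp (ha (m k).2) (χ (m k).2) T (m k).1 (C.ψ j z)
        fun g hg => hz (g, (m k).2) hg]
      refine Finset.sum_nbij' (fun g => (g, (m k).2)) Prod.fst ?_ ?_ ?_ ?_ ?_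
      · intro g hg
        rw [Finset.mem_filter] at hg ⊢
        exact ⟨Finset.mem_product.2 ⟨hg.1, Finset.mem_univ _⟩, Prod.ext hg.2 rfl⟩
      · intro ν hν
        rw [Finset.mem_filter] at hν ⊢
        exact ⟨(Finset.mem_product.1 hν.1).1, congrArg Prod.fst hν.2⟩
      · intro g _
        rfl
      · intro ν hν
        rw [Finset.mem_filter] at hν
        exact Prod.ext rfl (congrArg Prod.snd hν.2).symm
      · intro g _
        show _ = C.ex (m k).2 (χ (m k).2) (g⁻¹ • (1 : G) • C.ψ j z)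
        rw [one_smul]
    · simp only [hχ.supp j y (not_le.1 hy).le, zero_mul, Finset.sum_const_zero]
  unfold wj
  simp only [hpt]
  refine integral_finsetSum _ fun l _ => ?_
  refine Continuous.integrable_of_hasCompactSupport ?_ (cs_chi hχ j).mul_right
  exact (hχ.smooth j).continuous.mul (((fn_cc (PX C hχ) (l 0)).1 1 j).continuous.mul
    (B6b.continuous_jdet fun k => (fn_cc (PX C hχ) (l k.succ)).1 1 j))

theorem sum_push {C : Cov n M X G I} {C' : Cov n M W Γ I} {ρ : G →* Γ} {p : C(X, W)}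
    (he : ∀ (g : G) x, p (g • x) = ρ g • p x) (hp : ∀ x, C'.π (p x) = C.π x) {a : I → Γ}
    (ha : ∀ i y, a i • p (C.ψ i y) = C'.ψ i y) {χ : I → E n → ℝ} (hχ : Part C χ)
    (hχ' : Part C' χ) (j : I) (H : (Fin (n + 1) → Γ) → ℝ)
    (hH : ∀ (γ : Γ) m, H (fun k => γ * m k) = H m) :
    ∑ᶠ l, wj C χ (PX C hχ) j l * H (fun k => ρ (l k).1) =
      ∑ᶠ m, wj C' χ (PW C' hχ' a) j m * H (fun k => (m k).1) := by
  classical
  obtain ⟨T, hT⟩ := near' C (PX C hχ) (compact_ball C j)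
  rw [← finsum_comp_equiv (tlE (a j))
    (f := fun m => wj C' χ (PW C' hχ' a) j m * H (fun k => (m k).1))]
  have h1 : ∀ m : Fin (n + 1) → Γ × I,
      wj C' χ (PW C' hχ' a) j (tlE (a j) m) * H (fun k => (tlE (a j) m k).1) =
      ∑ l ∈ Fintype.piFinset (fun _ : Fin (n + 1) => T ×ˢ (Finset.univ : Finset I)),
        if (fun k => (ρ (l k).1, (l k).2)) = m then
          wj C χ (PX C hχ) j l * H (fun k => (m k).1) else 0 := by
    intro m
    have h2 : H (fun k => (tlE (a j) m k).1) = H (fun k => (m k).1) :=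
      hH (a j) fun k => (m k).1
    have h3 : Fintype.piFinset (fun k => (T ×ˢ (Finset.univ : Finset I)).filter
        fun ν : G × I => (ρ ν.1, ν.2) = m k) =
        (Fintype.piFinset (fun _ : Fin (n + 1) => T ×ˢ (Finset.univ : Finset I))).filter
          fun l => (fun k => (ρ (l k).1, (l k).2)) = m := by
      ext l
      simp only [Fintype.mem_piFinset, Finset.mem_filter, forall_and, funext_iff]
    rw [h2]
    show wj C' χ (PW C' hχ' a) j (tl (a j) m) * _ = _
    rw [wj_push he hp ha hχ hχ' j T hT m, h3, Finset.sum_mul, Finset.sum_filter]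
  rw [finsum_congr h1, finsum_sum_comm]
  · have h4 : ∀ l : Fin (n + 1) → G × I, ∑ᶠ m : Fin (n + 1) → Γ × I,
        (if (fun k => (ρ (l k).1, (l k).2)) = m then
          wj C χ (PX C hχ) j l * H (fun k => (m k).1) else 0) =
        wj C χ (PX C hχ) j l * H (fun k => ρ (l k).1) := by
      intro l
      rw [finsum_eq_single _ (fun k => (ρ (l k).1, (l k).2))]
      · rw [if_pos rfl]
      · intro m hm
        rw [if_neg (Ne.symm hm)]
    simp only [h4]
    refine finsum_eq_sum_of_support_subset _ fun l hl => ?_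
    rw [Finset.mem_coe, Fintype.mem_piFinset]
    intro k
    by_contra hk
    exact left_ne_zero_of_mul hl (wj_zero hχ (PX C hχ) j hT l k
      fun h => hk (Finset.mem_product.2 ⟨h, Finset.mem_univ _⟩))
  · intro l _
    refine (finite_singleton (fun k => (ρ (l k).1, (l k).2))).subset fun m hm => ?_
    by_contra hc
    exact hm (if_neg fun h => hc h.symm)

end

/-- ROW R2 -/
theorem specPush : SpecPush := by
  intro n M X W G Γ I _ _ _ _ _ _ _ _ _ _ C C' ρ p _ he hp hψ _ χ hχ hχ'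
  choose a ha using exists_a C C' p hp hψ
  refine ⟨I, inferInstance, PX C hχ, PW C' hχ' a, fun F' => ?_⟩
  rw [sum_wt hχ (PX C hχ) fun g => F' fun k => ρ (g k), sum_wt hχ' (PW C' hχ' a) F']
  refine Finset.sum_congr rfl fun j _ => ?_
  rw [← sum_push he hp ha hχ hχ' j (fun m => F' fun k => (m 0)⁻¹ * m k)]
  · simp only [map_mul, map_inv]
  · intro γ m
    show F' (fun k => (γ * m 0)⁻¹ * (γ * m k)) = F' fun k => (m 0)⁻¹ * m k
    congr 1
    funext k
    group

end Vale.Agent.P223.R2.H887.Push
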